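import Vale.Agent.P097.KMain

open Complex

namespace Vale.Agent.Results.P097.ActionAngle

/-- The billiard map on the universal cover: the ball leaves `γ s` with angle `δ` to the positive
tangent, next hits the boundary at `γ t` with `s < t < s + L`, and after reflection leaves with
angle `δ'` (the incoming direction makes the angle `-δ'` with the tangent at `t`). -/
def Bounce (γ : ℝ → ℂ) (L s δ t δ' : ℝ) : Prop :=
  s < t ∧ t < s + L ∧ ∃ l : ℝ, 0 < l ∧ γ t - γ s = l * Complex.exp (I * δ) * deriv γ s ∧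
    γ t - γ s = l * Complex.exp (-(I * δ')) * deriv γ t

/-- The graph `δ = g s` of a continuous `L`-periodic function with values between `0` and `π` is mapped
into itself by the billiard map. -/
def InvariantGraph (γ : ℝ → ℂ) (L : ℝ) (g : ℝ → ℝ) : Prop :=
  Continuous g ∧ Function.Periodic g L ∧ (∀ s, 0 < g s ∧ g s < Real.pi) ∧
    ∀ s t δ' : ℝ, 0 < δ' → δ' < Real.pi → Bounce γ L s (g s) t δ' → δ' = g t

/-- A smooth strictly convex billiard table all of whose phase points near the boundary lie on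
invariant rotational graphs is real-analytic, and its billiard map has real-analytic action-angle
coordinates `θ, a` up to the boundary, in which it is the shear `θ ↦ θ + a`. -/
theorem result (γ : ℝ → ℂ) (L : ℝ) (hL : 0 < L) (hsmooth : ContDiff ℝ (⊤ : ℕ∞) γ)
    (hper : Function.Periodic γ L) (hunit : ∀ s, ‖deriv γ s‖ = 1)
    (hcurv : ∀ s, 0 < ((starRingEnd ℂ) (deriv γ s) * deriv (deriv γ) s).im)
    (η : ℝ) (hη : 0 < η)
    (hfol : ∀ s δ : ℝ, 0 < δ → δ < η → ∃ g : ℝ → ℝ, InvariantGraph γ L g ∧ g s = δ) :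
    AnalyticOnNhd ℝ γ Set.univ ∧
    ∃ (r : ℝ) (σ d : ℝ × ℝ → ℝ), 0 < r ∧
      AnalyticOnNhd ℝ σ (Set.univ ×ˢ Set.Ioo (-r) r) ∧
      AnalyticOnNhd ℝ d (Set.univ ×ˢ Set.Ioo (-r) r) ∧
      (∀ θ a : ℝ, |a| < r → σ (θ + 1, a) = σ (θ, a) + L ∧ d (θ + 1, a) = d (θ, a)) ∧
      (∀ θ a : ℝ, |a| < r → 0 < deriv (fun x => σ (x, a)) θ) ∧
      (∀ θ : ℝ, d (θ, 0) = 0 ∧ 0 < deriv (fun a => d (θ, a)) 0) ∧
      (∀ θ a : ℝ, 0 < a → a < r → 0 < d (θ, a) ∧ d (θ, a) < Real.pi ∧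
        Bounce γ L (σ (θ, a)) (d (θ, a)) (σ (θ + a, a)) (d (θ + a, a))) ∧
      ∃ η' : ℝ, 0 < η' ∧ ∀ s δ : ℝ, 0 < δ → δ < η' →
        ∃ θ a : ℝ, 0 < a ∧ a < r ∧ σ (θ, a) = s ∧ d (θ, a) = δ :=
  let ⟨h1, r, σ, d, h2, h3⟩ :=
    Vale.Agent.P097.mainK γ L ⟨hL, hsmooth, hper, hunit, hcurv⟩ ⟨η, hη, hfol⟩
  ⟨h1, r, σ, d, h2.pos, h2.an1, h2.an2, h2.per, h2.mono, h2.bdry, h2.step, h3⟩

end Vale.Agent.Results.P097.ActionAngle
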