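import Vale.Agent.P097.Main

open Complex

namespace Vale.Agent.Results.P097.Analytic

/-- The billiard map on the universal cover: the ball leaves `γ s` with angle `δ` to the positive
tangent, next hits the boundary at `γ t` with `s < t < s + L`, and after reflection leaves with
angle `δ'` (the incoming direction makes the angle `-δ'` with the tangent at `t`). -/
def Bounce (γ : ℝ → ℂ) (L s δ t δ' : ℝ) : Prop :=
  s < t ∧ t < s + L ∧ ∃ l : ℝ, 0 < l ∧ γ t - γ s = l * Complex.exp (I * δ) * deriv γ s ∧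
    γ t - γ s = l * Complex.exp (-(I * δ')) * deriv γ t

/-- The graph `δ = g s` of a continuous `L`-periodic function with values in `(0, π)` is mapped
into itself by the billiard map. -/
def InvariantGraph (γ : ℝ → ℂ) (L : ℝ) (g : ℝ → ℝ) : Prop :=
  Continuous g ∧ Function.Periodic g L ∧ (∀ s, 0 < g s ∧ g s < Real.pi) ∧
    ∀ s t δ' : ℝ, 0 < δ' → δ' < Real.pi → Bounce γ L s (g s) t δ' → δ' = g t

/-- A smooth strictly convex billiard table all of whose phase points near the boundary lie on
invariant rotational graphs has a real-analytic boundary. -/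
theorem result (γ : ℝ → ℂ) (L : ℝ) (hL : 0 < L) (hsmooth : ContDiff ℝ (⊤ : ℕ∞) γ)
    (hper : Function.Periodic γ L) (hunit : ∀ s, ‖deriv γ s‖ = 1)
    (hcurv : ∀ s, 0 < ((starRingEnd ℂ) (deriv γ s) * deriv (deriv γ) s).im)
    (η : ℝ) (hη : 0 < η)
    (hfol : ∀ s δ : ℝ, 0 < δ → δ < η → ∃ g : ℝ → ℝ, InvariantGraph γ L g ∧ g s = δ) :
    AnalyticOnNhd ℝ γ Set.univ :=
  Vale.Agent.P097.main γ L ⟨hL, hsmooth, hper, hunit, hcurv⟩ ⟨η, hη, hfol⟩

end Vale.Agent.Results.P097.Analytic
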