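import Vale.Agent.P097.IMain

open Complex

namespace Vale.Agent.Results.P097.FirstIntegral

/-- The billiard map on the universal cover: the ball leaves `γ s` with angle `δ` to the positive
tangent, next hits the boundary at `γ t` with `s < t < s + L`, and after reflection leaves with
angle `δ'` (the incoming direction makes the angle `-δ'` with the tangent at `t`). -/
def Bounce (γ : ℝ → ℂ) (L s δ t δ' : ℝ) : Prop :=
  s < t ∧ t < s + L ∧ ∃ l : ℝ, 0 < l ∧ γ t - γ s = l * Complex.exp (I * δ) * deriv γ s ∧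
    γ t - γ s = l * Complex.exp (-(I * δ')) * deriv γ t

/-- Integrability near the boundary, on the universal cover of the phase cylinder: a
homeomorphism `e` from the strip `ℝ × (0,1)` onto an open set of phase points `s, δ` containing
all points with `0 < δ < η`, turning `φ ↦ φ + 1` into `s ↦ s + L` (so every leaf `t = const`
projects to a simple closed noncontractible curve), every leaf being mapped into itself by the
billiard map. -/
def IntegrableNearBoundary (γ : ℝ → ℂ) (L : ℝ) : Prop :=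
  ∃ (η : ℝ) (e : OpenPartialHomeomorph (ℝ × ℝ) (ℝ × ℝ)), 0 < η ∧
    e.source = Set.univ ×ˢ Set.Ioo 0 1 ∧
    Set.univ ×ˢ Set.Ioo 0 η ⊆ e.target ∧ e.target ⊆ Set.univ ×ˢ Set.Ioo 0 Real.pi ∧
    (∀ φ : ℝ, ∀ t ∈ Set.Ioo (0:ℝ) 1, e (φ + 1, t) = ((e (φ, t)).1 + L, (e (φ, t)).2)) ∧
    ∀ φ : ℝ, ∀ t ∈ Set.Ioo (0:ℝ) 1, ∀ s' δ' : ℝ, 0 < δ' → δ' < Real.pi →
      Bounce γ L (e (φ, t)).1 (e (φ, t)).2 s' δ' → ∃ φ' : ℝ, e (φ', t) = (s', δ')

/-- A smooth strictly convex billiard table that is integrable near the boundary is real-analytic,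
and its billiard map has a first integral `A` and an angle function `Θ`, real-analytic up to and
across the grazing end, in which it is the shear `Θ ↦ Θ + A`. -/
theorem result (γ : ℝ → ℂ) (L : ℝ) (hL : 0 < L) (hsmooth : ContDiff ℝ (⊤ : ℕ∞) γ)
    (hper : Function.Periodic γ L) (hunit : ∀ s, ‖deriv γ s‖ = 1)
    (hcurv : ∀ s, 0 < ((starRingEnd ℂ) (deriv γ s) * deriv (deriv γ) s).im)
    (hint : IntegrableNearBoundary γ L) :
    AnalyticOnNhd ℝ γ Set.univ ∧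
    ∃ (η η' : ℝ) (A Θ : ℝ × ℝ → ℝ), 0 < η' ∧ η' ≤ η ∧
      AnalyticOnNhd ℝ A (Set.univ ×ˢ Set.Ioo (-η) η) ∧
      AnalyticOnNhd ℝ Θ (Set.univ ×ˢ Set.Ioo (-η) η) ∧
      (∀ s δ : ℝ, |δ| < η → A (s + L, δ) = A (s, δ) ∧ Θ (s + L, δ) = Θ (s, δ) + 1) ∧
      Set.InjOn (fun x => (Θ x, A x)) (Set.univ ×ˢ Set.Ioo (-η) η) ∧
      (∀ s : ℝ, A (s, 0) = 0 ∧ 0 < deriv (fun δ => A (s, δ)) 0 ∧
        0 < deriv (fun x => Θ (x, 0)) s) ∧
      ∀ s δ : ℝ, 0 < δ → δ < η' → ∃ t δ' : ℝ, 0 < δ' ∧ δ' < η ∧ Bounce γ L s δ t δ' ∧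
        A (t, δ') = A (s, δ) ∧ Θ (t, δ') = Θ (s, δ) + A (s, δ) :=
  let ⟨η, e, a1, a2, a3, a4, a5, a6⟩ := hint
  let ⟨h1, η₁, η₂, A, Θ, h⟩ := Vale.Agent.P097.mainI γ L η e ⟨hL, hsmooth, hper, hunit, hcurv⟩
    ⟨a1, a2, a3, a4, a5, a6⟩
  ⟨h1, η₁, η₂, A, Θ, h.pos, h.le, h.an1, h.an2, h.per, h.inj, h.bdry, h.step⟩

end Vale.Agent.Results.P097.FirstIntegral
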