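import Vale.Agent.P097.BMain

open Complex

namespace Vale.Agent.Results.P097.Foliation

/-- The billiard map on the universal cover: the ball leaves `γ s` with angle `δ` to the positive
tangent, next hits the boundary at `γ t` with `s < t < s + L`, and after reflection leaves with
angle `δ'` (the incoming direction makes the angle `-δ'` with the tangent at `t`). -/
def Bounce (γ : ℝ → ℂ) (L s δ t δ' : ℝ) : Prop :=
  s < t ∧ t < s + L ∧ ∃ l : ℝ, 0 < l ∧ γ t - γ s = l * Complex.exp (I * δ) * deriv γ s ∧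
    γ t - γ s = l * Complex.exp (-(I * δ')) * deriv γ t

/-- Integrability near the boundary, on the universal cover of the phase cylinder: a
homeomorphism `e` from the strip `ℝ × (0,1)` onto an open set of phase points `s, δ` containing
all points with `0 < δ < η`, turning `φ ↦ φ + 1` into `s ↦ s + L` (so every leaf `t = const`
projects to a simple closed noncontractible curve), every leaf being mapped into itself by the
billiard map. -/
def IntegrableNearBoundary (γ : ℝ → ℂ) (L : ℝ) : Prop :=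
  ∃ (η : ℝ) (e : OpenPartialHomeomorph (ℝ × ℝ) (ℝ × ℝ)), 0 < η ∧
    e.source = Set.univ ×ˢ Set.Ioo 0 1 ∧
    Set.univ ×ˢ Set.Ioo 0 η ⊆ e.target ∧ e.target ⊆ Set.univ ×ˢ Set.Ioo 0 Real.pi ∧
    (∀ φ : ℝ, ∀ t ∈ Set.Ioo (0:ℝ) 1, e (φ + 1, t) = ((e (φ, t)).1 + L, (e (φ, t)).2)) ∧
    ∀ φ : ℝ, ∀ t ∈ Set.Ioo (0:ℝ) 1, ∀ s' δ' : ℝ, 0 < δ' → δ' < Real.pi →
      Bounce γ L (e (φ, t)).1 (e (φ, t)).2 s' δ' → ∃ φ' : ℝ, e (φ', t) = (s', δ')

/-- A smooth strictly convex billiard table that is integrable near the boundary is real-analytic,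
and its billiard map has real-analytic action-angle coordinates `θ, a` up to the boundary, in
which it is the shear `θ ↦ θ + a`. -/
theorem result (γ : ℝ → ℂ) (L : ℝ) (hL : 0 < L) (hsmooth : ContDiff ℝ (⊤ : ℕ∞) γ)
    (hper : Function.Periodic γ L) (hunit : ∀ s, ‖deriv γ s‖ = 1)
    (hcurv : ∀ s, 0 < ((starRingEnd ℂ) (deriv γ s) * deriv (deriv γ) s).im)
    (hint : IntegrableNearBoundary γ L) :
    AnalyticOnNhd ℝ γ Set.univ ∧
    ∃ (r : ℝ) (σ d : ℝ × ℝ → ℝ), 0 < r ∧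
      AnalyticOnNhd ℝ σ (Set.univ ×ˢ Set.Ioo (-r) r) ∧
      AnalyticOnNhd ℝ d (Set.univ ×ˢ Set.Ioo (-r) r) ∧
      (∀ θ a : ℝ, |a| < r → σ (θ + 1, a) = σ (θ, a) + L ∧ d (θ + 1, a) = d (θ, a)) ∧
      (∀ θ a : ℝ, |a| < r → 0 < deriv (fun x => σ (x, a)) θ) ∧
      (∀ θ : ℝ, d (θ, 0) = 0 ∧ 0 < deriv (fun a => d (θ, a)) 0) ∧
      (∀ θ a : ℝ, 0 < a → a < r → 0 < d (θ, a) ∧ d (θ, a) < Real.pi ∧
        Bounce γ L (σ (θ, a)) (d (θ, a)) (σ (θ + a, a)) (d (θ + a, a))) ∧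
      ∃ η' : ℝ, 0 < η' ∧ ∀ s δ : ℝ, 0 < δ → δ < η' →
        ∃ θ a : ℝ, 0 < a ∧ a < r ∧ σ (θ, a) = s ∧ d (θ, a) = δ :=
  let ⟨η, e, a1, a2, a3, a4, a5, a6⟩ := hint
  let hT : Vale.Agent.P097.Table γ L := ⟨hL, hsmooth, hper, hunit, hcurv⟩
  let ⟨h1, r, σ, d, h2, h3⟩ := Vale.Agent.P097.mainK γ L hT
    (Vale.Agent.P097.mainB γ L η e hT ⟨a1, a2, a3, a4, a5, a6⟩)
  ⟨h1, r, σ, d, h2.pos, h2.an1, h2.an2, h2.per, h2.mono, h2.bdry, h2.step, h3⟩

end Vale.Agent.Results.P097.Foliation
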